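import Vale.Agent.P180.R2.H589.Mz.Fin

/-!
P180: `p` does not divide the order of the centre of a perfect central extension of `POmega(V)`,
`p` a linear prime; all dimensions.
-/

set_option linter.all false

namespace Vale.Agent.P180.R2.H589.Mz

open Polynomial Module Subgroup
open LinearMap (BilinForm)
open O8 (QB Sg)

variable {K V : Type} [Field K] [Finite K] [AddCommGroup V] [Module K V] [Module.Finite K V]
  {p r : ℕ} {q : V → K} {B : BilinForm K V} {X : Subgroup (V ≃ₗ[K] V)}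

theorem relIndex_of_pow {G H : Type*} [Group G] [Finite G] [Group H] {r : ℕ} [Fact r.Prime]
    (f : G →* H) (N : Subgroup G) (h : ∀ g ∈ N, f g ^ (r ^ 2) = 1) :
    ∃ k, f.ker.relIndex N ∣ r ^ k := by
  have h2 : IsPGroup r (N ⧸ f.ker.subgroupOf N) := by
    intro y
    obtain ⟨y, rfl⟩ := QuotientGroup.mk_surjective y
    refine ⟨2, ?_⟩
    rw [← QuotientGroup.mk_pow, QuotientGroup.eq_one_iff, Subgroup.mem_subgroupOf,
      MonoidHom.mem_ker, Subgroup.coe_pow, map_pow]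
    exact h y y.2
  obtain ⟨k, hk'⟩ := IsPGroup.iff_card.mp h2
  refine ⟨k, ?_⟩
  rw [← hk']
  exact dvd_refl _

/-- the radical is an `r`-group -/
theorem pow_rad [hr : Fact r.Prime] [CharP K r] (s : Sg q B X) {U : Submodule K V}
    (g : Yg B X U) (hg : rhoU B X U g = 1) : g ^ (r ^ 2) = 1 := by
  have h1 := rhoU_eq_one hg
  have h2 := g.2
  have h3 : ∀ x, ((g : X) : V ≃ₗ[K] V) x - x ∈ Pp B U := by
    intro x y hy
    have h4 := s.isoB (g : X).2 x y
    rw [h1 y hy] at h4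
    rw [map_sub, LinearMap.sub_apply, h4, sub_self]
  obtain ⟨e, he⟩ : ∃ e : Module.End K V, e = (((g : X) : V ≃ₗ[K] V) : V →ₗ[K] V) := ⟨_, rfl⟩
  have he' : ∀ x, e x = ((g : X) : V ≃ₗ[K] V) x := fun x => by rw [he]; rfl
  have h5 : (e - 1) ^ 3 = 0 := by
    apply LinearMap.ext
    intro x
    have h6 : ((e - 1 : Module.End K V) ^ 3) x = (e - 1) ((e - 1) ((e - 1) x)) := by
      rw [pow_succ, pow_two]; rfl
    have h7 : ∀ x, (e - 1 : Module.End K V) x = ((g : X) : V ≃ₗ[K] V) x - x := fun x => by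
      rw [LinearMap.sub_apply, he']; rfl
    rw [h6, h7 x]
    have h8 := h2.2.2 _ (h3 x)
    rw [h7 (((g : X) : V ≃ₗ[K] V) x - x), h7, h1 _ h8, sub_self]
    rfl
  have h9 : e ^ (r ^ 2) = 1 := by
    have h10 : 3 ≤ r ^ 2 := by
      have h11 := hr.out.two_le
      nlinarith
    have h12 : (e - 1) ^ (r ^ 2) = 0 := by
      obtain ⟨k, hk⟩ := Nat.exists_eq_add_of_le h10
      rw [hk, pow_add, h5, zero_mul]
    have h13 : ((Polynomial.X : Polynomial K) - 1) ^ (r ^ 2) =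
        (Polynomial.X : Polynomial K) ^ (r ^ 2) - 1 := by
      rw [sub_pow_char_pow, one_pow]
    have h14 := congrArg (aeval e) h13
    rw [map_pow, map_sub, map_sub, map_pow, aeval_X, map_one, h12] at h14
    exact (sub_eq_zero.mp h14.symm)
  apply Subtype.ext
  apply Subtype.ext
  apply LinearEquiv.ext
  intro x
  have h10 := coe_pow ((g : X) : V ≃ₗ[K] V) (r ^ 2) x
  rw [← he, h9] at h10
  exact h10.symm

/-- **The `p`-part of the multiplier of the orthogonal groups, `p` a linear prime.** -/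
theorem not_dvd_ker [hr : Fact r.Prime] [CharP K r] (s : Sg q B X)
    (hnd : ∀ x, (∀ y, B x y = 0) → x = 0) (hK : 9 < Nat.card K) (hp : p.Prime)
    (hpr : p ≠ r)
    (hlin : ∀ j, (∀ c : K, c = c ^ (r ^ j)) → ¬ p ∣ r ^ j + 1)
    {T : Type} [Group T] {π : X →* T} (hπ : Function.Surjective π)
    (hker : ∀ x : X, π x = 1 → ∃ a : K, ∀ v, (x : V ≃ₗ[K] V) v = a • v)
    {L : Type} [Group L] [Finite L] (hL : commutator L = ⊤) (φ : L →* T)
    (hφ : Function.Surjective φ) (hk : φ.ker ≤ center L) : ¬ p ∣ Nat.card φ.ker := by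
  intro hd
  haveI : Fact p.Prime := ⟨hp⟩
  have hr' : r.Prime := hr.out
  have hpK : (p : K) ≠ 0 := by
    intro h1
    have h2 := (CharP.cast_eq_zero_iff K r p).mp h1
    exact hpr ((Nat.prime_dvd_prime_iff_eq hr' hp).mp h2).symm
  have hp2 : p ≠ 2 := by
    intro h2
    apply hlin 0 (fun c => by rw [pow_zero, pow_one])
    rw [h2, pow_zero]
  haveI : Finite V := Module.finite_of_finite K
  haveI : Finite (V ≃ₗ[K] V) := Finite.of_injective (fun g : V ≃ₗ[K] V => (g : V → V))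
    DFunLike.coe_injective
  obtain ⟨z, hz⟩ := exists_prime_orderOf_dvd_card' (G := φ.ker) p hd
  have hzp : (z : L) ^ p = 1 := by
    have h1 : z ^ p = 1 := by rw [← hz]; exact pow_orderOf_eq_one z
    exact congrArg Subtype.val h1
  have hzc : (z : L) ∈ center L := hk z.2
  have hzφ : φ z = 1 := z.2
  -- the stable subspace of a Sylow subgroup
  obtain ⟨P⟩ : Nonempty (Sylow p X) := inferInstance
  obtain ⟨U, hU, hUi, hUt⟩ := exists_stable (r := r) s.qb hp hpK hlin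
    ((P : Subgroup X).map X.subtype) (P.isPGroup'.map X.subtype) (by
      rintro _ ⟨g, _, rfl⟩ x
      exact s.iso g g.2 x)
  have hmem : ∀ g ∈ P, (∀ x ∈ U, (g : V ≃ₗ[K] V) x ∈ U) ∧
      ∀ x ∈ Pp B U, (g : V ≃ₗ[K] V) x - x ∈ U := fun g hg =>
    ⟨hUi _ ⟨g, hg, rfl⟩, hUt _ ⟨g, hg, rfl⟩⟩
  have hPY : (P : Subgroup X) ≤ Yg B X U := by
    intro g hg
    have h1 := hmem g hg
    have h2 := hmem g⁻¹ (inv_mem hg)
    have h3 : ∀ x, ((g⁻¹ : X) : V ≃ₗ[K] V) ((g : V ≃ₗ[K] V) x) = x := fun x =>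
      (g : V ≃ₗ[K] V).symm_apply_apply x
    have h4 : ∀ x, (g : V ≃ₗ[K] V) x ∈ U ↔ x ∈ U := by
      intro x
      refine ⟨fun hx => ?_, fun hx => h1.1 x hx⟩
      have h5 := h2.1 _ hx
      rwa [h3] at h5
    refine ⟨h4, fun x => ⟨fun hx y hy => ?_, fun hx y hy => ?_⟩, h1.2⟩
    · rw [← s.isoB g.2]
      exact hx _ ((h4 y).mpr hy)
    · have h5 : (g : V ≃ₗ[K] V) (((g⁻¹ : X) : V ≃ₗ[K] V) y) = y :=
        (g : V ≃ₗ[K] V).apply_symm_apply y
      rw [← h5, s.isoB g.2]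
      exact hx _ (h2.1 y hy)
  have hYi : ¬ p ∣ (Yg B X U).index := fun h1 =>
    P.not_dvd_index (h1.trans (Subgroup.index_dvd_of_le hPY))
  obtain ⟨M, hM⟩ : ∃ M, M = ((Yg B X U).map π).comap φ := ⟨_, rfl⟩
  have hMi : ¬ p ∣ M.index := by
    rw [hM, Subgroup.index_comap_of_surjective _ hφ]
    exact fun h1 => hYi (h1.trans (Subgroup.index_map_dvd _ hπ))
  have hzM : (z : L) ∈ M := by
    rw [hM, Subgroup.mem_comap, hzφ]
    exact Subgroup.one_mem _
  have hzcomm := mem_commutator_of_index hL M hp hMi hzc hzp hzM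
  -- the fibre product
  let Mt : Subgroup (L × Yg B X U) :=
    (φ.comp (MonoidHom.fst L (Yg B X U))).eqLocus
      (π.comp ((Yg B X U).subtype.comp (MonoidHom.snd L (Yg B X U))))
  have hMt : ∀ m : L × Yg B X U, m ∈ Mt ↔ φ m.1 = π m.2 := fun m => Iff.rfl
  let f₁ : Mt →* M :=
    { toFun := fun m => ⟨m.1.1, by
        rw [hM, Subgroup.mem_comap]
        exact ⟨m.1.2, m.1.2.2, ((hMt m.1).mp m.2).symm⟩⟩
      map_one' := rfl
      map_mul' := fun _ _ => rfl }
  have hf₁ : Function.Surjective f₁ := by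
    rintro ⟨x, hx⟩
    have h1 : φ x ∈ (Yg B X U).map π := by rw [hM] at hx; exact hx
    obtain ⟨y, hy, hyx⟩ := h1
    exact ⟨⟨(x, ⟨y, hy⟩), hyx.symm⟩, rfl⟩
  have h1 : (⟨z, hzM⟩ : M) ∈ (commutator Mt).map f₁ := by
    have h2 : (commutator Mt).map f₁ = commutator M := by
      rw [commutator_def, Subgroup.map_commutator, ← MonoidHom.range_eq_map,
        MonoidHom.range_eq_top.mpr hf₁, ← commutator_def]
    rw [h2]
    exact hzcomm
  obtain ⟨m, hm, hmz⟩ := h1
  have hm1 : m.1.1 = (z : L) := congrArg Subtype.val hmz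
  have hm2 : π m.1.2 = 1 := by
    rw [← (hMt m.1).mp m.2, hm1, hzφ]
  obtain ⟨a, ha⟩ := hker _ hm2
  have hm3 : (m.1.2 : X) * (m.1.2 : X) = 1 := by
    apply Subtype.ext
    apply LinearEquiv.ext
    intro x
    change ((m.1.2 : X) : V ≃ₗ[K] V) (((m.1.2 : X) : V ≃ₗ[K] V) x) = x
    rw [ha, ha]
    apply sub_eq_zero.mp
    apply hnd
    intro y
    have h3 := s.isoB (m.1.2 : X).2 x y
    rw [ha, ha, map_smul, map_smul, LinearMap.smul_apply, smul_eq_mul, smul_eq_mul] at h3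
    rw [map_sub, map_smul, map_smul, LinearMap.sub_apply, LinearMap.smul_apply,
      LinearMap.smul_apply, smul_eq_mul, smul_eq_mul, h3, sub_self]
  have hm4 : (m * m).1.2 = 1 := Subtype.ext hm3
  -- the action on `U`
  let ρ : Mt →* Matrix.GeneralLinearGroup (Fin (finrank K U)) K :=
    (rhoU B X U).comp ((MonoidHom.snd L (Yg B X U)).comp Mt.subtype)
  let C : Subgroup Mt := ((MonoidHom.snd L (Yg B X U)).comp Mt.subtype).ker
  have hCc : C ≤ center Mt := by
    intro c hc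
    have h2 : c.1.2 = 1 := hc
    have h3 : c.1.1 ∈ center L := by
      apply hk
      rw [MonoidHom.mem_ker, (hMt c.1).mp c.2, h2]
      exact map_one π
    rw [mem_center_iff]
    intro g
    apply Subtype.ext
    apply Prod.ext
    · exact mem_center_iff.mp h3 g.1.1
    · change g.1.2 * c.1.2 = c.1.2 * g.1.2
      rw [h2, mul_one, one_mul]
  have hRr : ∀ g : Yg B X U, rhoU B X U g = 1 → g ^ (r ^ 2) = 1 := fun g hg =>
    pow_rad s g hg
  have hi : ∃ k, C.relIndex ρ.ker ∣ r ^ k :=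
    relIndex_of_pow ((MonoidHom.snd L (Yg B X U)).comp Mt.subtype) ρ.ker fun g hg => hRr _ hg
  obtain ⟨k, hi⟩ := hi
  have hmm : m * m ∈ commutator Mt := (commutator Mt).mul_mem hm hm
  have hSL : ∀ g : Matrix.SpecialLinearGroup (Fin (finrank K U)) K,
      ∃ m, ρ m = (g : Matrix.GeneralLinearGroup (Fin (finrank K U)) K) := by
    intro g
    obtain ⟨y, hy⟩ := rhoU_surj s hnd hU g
    obtain ⟨x, hx⟩ := hφ (π y)
    exact ⟨⟨(x, y), hx⟩, hy⟩
  have hmρ : ρ (m * m) = 1 := by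
    have h2 : ρ (m * m) = rhoU B X U (m * m).1.2 := rfl
    rw [h2, hm4, map_one]
  have hmp : (m * m) ^ p = 1 := by
    have h2 : ((m * m) ^ p).1.1 = 1 := by
      have h3 : ((m * m) ^ p).1.1 = (m.1.1 * m.1.1) ^ p := rfl
      rw [h3, hm1, ← pow_two, ← pow_mul, mul_comm, pow_mul, hzp, one_pow]
    have h4 : ((m * m) ^ p).1.2 = 1 := by
      have h3 : ((m * m) ^ p).1.2 = ((m * m).1.2) ^ p := rfl
      rw [h3, hm4, one_pow]
    exact Subtype.ext (Prod.ext h2 h4)
  have hfin := eq_one_of_comm_r ρ hSL C hCc hi hK hmm hmρ hp hpr hmp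
  have h2 : (z : L) * z = 1 := by
    have h3 := congrArg (fun e : Mt => e.1.1) hfin
    change m.1.1 * m.1.1 = 1 at h3
    rwa [hm1] at h3
  have h3 : orderOf (z : L) = p := by rw [Subgroup.orderOf_coe, hz]
  have h4 : orderOf (z : L) ∣ 2 := orderOf_dvd_of_pow_eq_one (by rw [pow_two]; exact h2)
  rw [h3] at h4
  exact hp2 ((Nat.prime_dvd_prime_iff_eq hp Nat.prime_two).mp h4)

end Vale.Agent.P180.R2.H589.Mz
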