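import Vale.Agent.P180.R2.H589.Sch.Main
import Vale.Agent.P180.R2.H589.Sch.ChrMain
import Mathlib.GroupTheory.Transfer
import Mathlib.GroupTheory.Sylow
import Mathlib.LinearAlgebra.Matrix.GeneralLinearGroup.Defs

/-!
P180: central elements of perfect groups and groups over `GL(n, K)`.
-/

set_option linter.all false

namespace Vale.Agent.P180.R2.H589.Mz

open Subgroup Matrix

/-- a central element of order `p` of a perfect group belongs to the derived group of each
subgroup of index prime to `p` -/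
theorem mem_commutator_of_index {L : Type*} [Group L] [Finite L] (hL : commutator L = ⊤)
    (M : Subgroup L) {p : ℕ} (hp : p.Prime) (hM : ¬ p ∣ M.index) {z : L} (hzc : z ∈ center L)
    (hz : z ^ p = 1) (hzM : z ∈ M) : (⟨z, hzM⟩ : M) ∈ commutator M := by
  let τ : L →* Abelianization M := MonoidHom.transfer (Abelianization.of : M →* Abelianization M)
  have h1 : τ z = 1 := by
    have h2 : commutator L ≤ τ.ker := Abelianization.commutator_subset_ker τ
    rw [hL] at h2
    exact MonoidHom.mem_ker.mp (h2 (Subgroup.mem_top _))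
  have h2 := MonoidHom.transfer_eq_pow (Abelianization.of : M →* Abelianization M) z (by
    intro j g₀ _
    have h3 : g₀ * z ^ j = z ^ j * g₀ :=
      Subgroup.mem_center_iff.mp (Subgroup.pow_mem _ hzc j) g₀
    rw [mul_assoc, ← h3, inv_mul_cancel_left])
  have h3 : (⟨z, hzM⟩ : M) ^ M.index ∈ commutator M := by
    rw [← Abelianization.ker_of, MonoidHom.mem_ker]
    have h4 : (⟨z, hzM⟩ : M) ^ M.index = ⟨z ^ M.index, by
        exact M.pow_mem hzM _⟩ := Subtype.ext rfl
    rw [h4]
    exact h2.symm.trans h1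
  have h5 : (⟨z, hzM⟩ : M) ^ p = 1 := Subtype.ext hz
  have h6 : Nat.Coprime M.index p := ((Nat.Prime.coprime_iff_not_dvd hp).mpr hM).symm
  have h7 : (⟨z, hzM⟩ : M) ^ (Nat.gcd M.index p) ∈ commutator M := by
    have h8 : ((⟨z, hzM⟩ : M) : M) ^ ((Nat.gcd M.index p : ℕ) : ℤ) ∈ commutator M := by
      rw [Nat.gcd_eq_gcd_ab, zpow_add, zpow_mul, zpow_mul, zpow_natCast, zpow_natCast, h5,
        one_zpow, mul_one]
      exact Subgroup.zpow_mem _ h3 _
    rwa [zpow_natCast] at h8
  rwa [h6, pow_one] at h7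

variable {K : Type} [Field K] [Finite K] {n : ℕ}

/-- groups with central kernel over `GL(n, K)` -/
theorem eq_one_of_comm {M : Type} [Group M] [Finite M] (ρ : M →* GL (Fin n) K)
    (hSL : ∀ g : SpecialLinearGroup (Fin n) K, ∃ m, ρ m = (g : GL (Fin n) K))
    (hk : ρ.ker ≤ center M) (hK : 9 < Nat.card K) {x : M} (hx : x ∈ commutator M)
    (hx1 : ρ x = 1) : x = 1 := by
  let δ : M →* Kˣ := GeneralLinearGroup.det.comp ρ
  by_cases hn : 2 ≤ n
  swap
  · -- the small cases
    have h1 : δ.ker ≤ center M := by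
      intro m hm
      apply hk
      have h2 : GeneralLinearGroup.det (ρ m) = 1 := hm
      have h3 : (ρ m : Matrix (Fin n) (Fin n) K).det = 1 := by
        have h4 := congrArg Units.val h2
        exact h4
      rw [MonoidHom.mem_ker]
      apply Units.ext
      have hn' : n = 0 ∨ n = 1 := by omega
      rcases hn' with rfl | rfl
      · exact Subsingleton.elim _ _
      · rw [Matrix.det_fin_one] at h3
        ext i j
        rw [Fin.fin_one_eq_zero i, Fin.fin_one_eq_zero j, h3]
        rfl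
    have h2 : ∀ a b : M, a * b = b * a := commutative_of_cyclic_center_quotient δ h1
    have h3 : commutator M ≤ ⊥ := by
      rw [commutator_def, Subgroup.commutator_le]
      intro a _ b _
      rw [Subgroup.mem_bot, commutatorElement_def, h2 a b, mul_inv_cancel_right, mul_inv_cancel]
    exact Subgroup.mem_bot.mp (h3 hx)
  obtain ⟨N, hN⟩ : ∃ N, N = δ.ker := ⟨_, rfl⟩
  haveI hNn : N.Normal := by rw [hN]; infer_instance
  have hdet : ∀ m : N, (ρ m : Matrix (Fin n) (Fin n) K).det = 1 := by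
    intro m
    have h1 : (m : M) ∈ δ.ker := by rw [← hN]; exact m.2
    have h2 : GeneralLinearGroup.det (ρ m) = 1 := h1
    exact congrArg Units.val h2
  let F : N →* SpecialLinearGroup (Fin n) K :=
    { toFun := fun m => ⟨(ρ m : Matrix (Fin n) (Fin n) K), hdet m⟩
      map_one' := by
        apply Subtype.ext
        change ((ρ ((1 : N) : M) : GL (Fin n) K) : Matrix (Fin n) (Fin n) K) = 1
        rw [Subgroup.coe_one, map_one]
        rfl
      map_mul' := by
        intro a b
        apply Subtype.ext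
        change ((ρ ((a * b : N) : M) : GL (Fin n) K) : Matrix (Fin n) (Fin n) K) = _
        rw [Subgroup.coe_mul, map_mul]
        rfl }
  have hF : Function.Surjective F := by
    intro g
    obtain ⟨m, hm⟩ := hSL g
    have h1 : m ∈ N := by
      rw [hN, MonoidHom.mem_ker]
      change GeneralLinearGroup.det (ρ m) = 1
      rw [hm]
      apply Units.ext
      exact g.2
    refine ⟨⟨m, h1⟩, Subtype.ext ?_⟩
    change ((ρ m : GL (Fin n) K) : Matrix (Fin n) (Fin n) K) = _
    rw [hm]
    rfl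
  have hFk : ∀ m : N, F m = 1 → ρ m = 1 := by
    intro m hm
    apply Units.ext
    have h1 := congrArg Subtype.val hm
    exact h1
  have hFc : F.ker ≤ center N := by
    intro m hm
    have h1 := hk (hFk m hm)
    rw [mem_center_iff] at h1 ⊢
    intro g
    exact Subtype.ext (h1 g)
  obtain ⟨h1, h2⟩ := Sch.perfect_commutator F hF hFc (Sch.sl_perfect (by omega) (by omega))
  let f : commutator N →* SpecialLinearGroup (Fin n) K := F.comp (commutator N).subtype
  have hf : Function.Surjective f := by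
    intro g
    obtain ⟨m, hm⟩ := hF g
    obtain ⟨c, hc, hcm⟩ := h1 m
    exact ⟨⟨c, hc⟩, hcm.trans hm⟩
  have hfk : f.ker ≤ center (commutator N) := by
    intro m hm
    have h3 : (m : N) ∈ center N := hFc hm
    rw [mem_center_iff] at h3 ⊢
    intro g
    exact Subtype.ext (h3 g)
  have hfi := Sch.sl_injective hn hK h2 f hf hfk
  obtain ⟨E, hE⟩ : ∃ E, E = (commutator N).map N.subtype := ⟨_, rfl⟩
  haveI hEn : E.Normal := by
    rw [hE]
    exact ConjAct.normal_of_characteristic_of_normal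
  have hEN : E ≤ N := by
    rw [hE]
    rintro _ ⟨m, _, rfl⟩
    exact m.2
  let δ' : M ⧸ E →* Kˣ := QuotientGroup.lift E δ (by
    intro m hm
    have h3 := hEN hm
    rw [hN] at h3
    exact h3)
  have hδ' : δ'.ker ≤ center (M ⧸ E) := by
    intro y hy
    obtain ⟨m, rfl⟩ := QuotientGroup.mk_surjective y
    have h3 : m ∈ N := by
      rw [hN]
      exact hy
    obtain ⟨c, hc, hcm⟩ := h1 ⟨m, h3⟩
    have h4 : ρ ((c : M)⁻¹ * m) = 1 := by
      have h5 := hFk (c⁻¹ * ⟨m, h3⟩) (by rw [map_mul, map_inv, hcm, inv_mul_cancel])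
      exact h5
    have h5 := mem_center_iff.mp (hk h4)
    have h6 : (QuotientGroup.mk m : M ⧸ E) = QuotientGroup.mk ((c : M)⁻¹ * m) := by
      rw [QuotientGroup.mk_mul, QuotientGroup.mk_inv]
      have h7 : (QuotientGroup.mk (c : M) : M ⧸ E) = 1 := by
        rw [QuotientGroup.eq_one_iff, hE]
        exact ⟨c, hc, rfl⟩
      rw [h7, inv_one, one_mul]
    rw [mem_center_iff]
    intro g
    obtain ⟨g, rfl⟩ := QuotientGroup.mk_surjective g
    rw [h6, ← QuotientGroup.mk_mul, ← QuotientGroup.mk_mul, h5 g]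
  have h3 : ∀ a b : M ⧸ E, a * b = b * a := commutative_of_cyclic_center_quotient δ' hδ'
  have h4 : commutator M ≤ E := by
    rw [commutator_def, Subgroup.commutator_le]
    intro a _ b _
    rw [← QuotientGroup.eq_one_iff, commutatorElement_def, QuotientGroup.mk_mul,
      QuotientGroup.mk_mul, QuotientGroup.mk_mul, QuotientGroup.mk_inv, QuotientGroup.mk_inv,
      h3 (QuotientGroup.mk a), mul_inv_cancel_right, mul_inv_cancel]
  have h5 := h4 hx
  rw [hE] at h5
  obtain ⟨c, hc, hcx⟩ := h5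
  have hcx' : (c : M) = x := hcx
  have h6 : F c = 1 := by
    apply Subtype.ext
    change ((ρ (c : M) : GL (Fin n) K) : Matrix (Fin n) (Fin n) K) = 1
    rw [hcx', hx1]
    rfl
  have h7 : (⟨c, hc⟩ : commutator N) = 1 := hfi (by rw [map_one]; exact h6)
  have h8 : c = 1 := congrArg Subtype.val h7
  rw [← hcx', h8]
  rfl

/-- central subgroups of `r`-power index -/
theorem sylow_of_central {G : Type*} [Group G] [Finite G] {r : ℕ} [hr : Fact r.Prime]
    (C : Subgroup G) (hC : C ≤ center G) {k : ℕ} (hk : C.index ∣ r ^ k) (P : Sylow r G) :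
    (P : Subgroup G).Normal ∧ ∀ g : G, ∃ c ∈ C, ∃ x ∈ P, g = c * x := by
  have hr' : r.Prime := hr.out
  have h1 : C ⊔ (P : Subgroup G) = ⊤ := by
    have h2 := Subgroup.index_dvd_of_le (le_sup_left : C ≤ C ⊔ (P : Subgroup G))
    have h3 := Subgroup.index_dvd_of_le (le_sup_right : (P : Subgroup G) ≤ C ⊔ (P : Subgroup G))
    rw [← Subgroup.index_eq_one]
    obtain ⟨j, _, hj⟩ := (Nat.dvd_prime_pow hr').mp (h2.trans hk)
    rcases Nat.eq_zero_or_pos j with h0 | h0
    · rw [hj, h0, pow_zero]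
    · exfalso
      apply P.not_dvd_index
      refine dvd_trans ?_ h3
      rw [hj]
      exact dvd_pow_self r (by omega)
  haveI hCn : C.Normal := ⟨fun c hc g => by
    have h2 := mem_center_iff.mp (hC hc) g
    rw [h2, mul_inv_cancel_right]
    exact hc⟩
  have h2 : ∀ g : G, ∃ c ∈ C, ∃ x ∈ P, g = c * x := by
    intro g
    have h3 : g ∈ ((C ⊔ (P : Subgroup G) : Subgroup G) : Set G) := by rw [h1]; exact mem_top g
    rw [Subgroup.normal_mul] at h3
    obtain ⟨c, hc, x, hx, h4⟩ := Set.mem_mul.mp h3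
    exact ⟨c, hc, x, hx, h4.symm⟩
  refine ⟨⟨fun y hy g => ?_⟩, h2⟩
  obtain ⟨c, hc, x, hx, rfl⟩ := h2 g
  have h3 := mem_center_iff.mp (hC hc)
  have h4 : c * x * y * (c * x)⁻¹ = x * y * x⁻¹ := by
    calc c * x * y * (c * x)⁻¹ = c * (x * y * x⁻¹) * c⁻¹ := by group
      _ = (x * y * x⁻¹) * c * c⁻¹ := by rw [h3]
      _ = x * y * x⁻¹ := by group
  rw [h4]
  exact (P : Subgroup G).mul_mem ((P : Subgroup G).mul_mem hx hy) ((P : Subgroup G).inv_mem hx)

/-- groups over `GL(n, K)` whose kernel is central modulo an `r`-group -/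
theorem eq_one_of_comm_r {M : Type} [Group M] [Finite M] (ρ : M →* GL (Fin n) K)
    (hSL : ∀ g : SpecialLinearGroup (Fin n) K, ∃ m, ρ m = (g : GL (Fin n) K))
    {r : ℕ} [hr : Fact r.Prime] (C : Subgroup M) (hC : C ≤ center M)
    {k : ℕ} (hi : C.relIndex ρ.ker ∣ r ^ k) (hK : 9 < Nat.card K)
    {x : M} (hx : x ∈ commutator M)
    (hx1 : ρ x = 1) {p : ℕ} (hp : p.Prime) (hpr : p ≠ r) (hxp : x ^ p = 1) : x = 1 := by
  obtain ⟨P⟩ : Nonempty (Sylow r ρ.ker) := inferInstance
  have hC' : C.subgroupOf ρ.ker ≤ center ρ.ker := by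
    intro c hc
    have h1 := mem_center_iff.mp (hC (mem_subgroupOf.mp hc))
    rw [mem_center_iff]
    intro g
    exact Subtype.ext (h1 g)
  obtain ⟨hPn, h2⟩ := sylow_of_central (C.subgroupOf ρ.ker) hC' hi P
  haveI hPc : (P : Subgroup ρ.ker).Characteristic := P.characteristic_of_normal hPn
  obtain ⟨R, hR⟩ : ∃ R, R = (P : Subgroup ρ.ker).map ρ.ker.subtype := ⟨_, rfl⟩
  haveI hRn : R.Normal := by
    rw [hR]
    exact ConjAct.normal_of_characteristic_of_normal
  have hRk : R ≤ ρ.ker := by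
    rw [hR]
    rintro _ ⟨m, _, rfl⟩
    exact m.2
  have hRr : ∀ y ∈ R, ∃ j, y ^ r ^ j = 1 := by
    rw [hR]
    rintro _ ⟨m, hm, rfl⟩
    obtain ⟨j, hj⟩ := P.isPGroup' ⟨m, hm⟩
    refine ⟨j, ?_⟩
    have h3 := congrArg Subtype.val (congrArg Subtype.val hj)
    exact h3
  let ρ' : M ⧸ R →* GL (Fin n) K := QuotientGroup.lift R ρ (fun m hm => hRk hm)
  have h3 := eq_one_of_comm ρ' (fun g => by
      obtain ⟨m, hm⟩ := hSL g
      exact ⟨QuotientGroup.mk m, hm⟩) (by
      intro y hy
      obtain ⟨m, rfl⟩ := QuotientGroup.mk_surjective y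
      have h4 : m ∈ ρ.ker := hy
      obtain ⟨c, hc, w, hw, hcw⟩ := h2 ⟨m, h4⟩
      have h5 : (QuotientGroup.mk m : M ⧸ R) = QuotientGroup.mk (c : M) := by
        have h6 : m = (c : M) * (w : M) := congrArg Subtype.val hcw
        rw [h6, QuotientGroup.mk_mul]
        have h7 : (QuotientGroup.mk (w : M) : M ⧸ R) = 1 := by
          rw [QuotientGroup.eq_one_iff, hR]
          exact ⟨w, hw, rfl⟩
        rw [h7, mul_one]
      have h6 := mem_center_iff.mp (hC (mem_subgroupOf.mp hc))
      rw [mem_center_iff]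
      intro g
      obtain ⟨g, rfl⟩ := QuotientGroup.mk_surjective g
      rw [h5, ← QuotientGroup.mk_mul, ← QuotientGroup.mk_mul, h6 g]) hK
    (x := (QuotientGroup.mk x : M ⧸ R)) (by
      have h4 : commutator M ≤ (commutator (M ⧸ R)).comap (QuotientGroup.mk' R) := by
        rw [← Subgroup.map_le_iff_le_comap, commutator_def, Subgroup.map_commutator]
        exact Subgroup.commutator_mono le_top le_top
      exact h4 hx) hx1
  rw [QuotientGroup.eq_one_iff] at h3
  obtain ⟨j, hj⟩ := hRr x h3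
  have h4 := orderOf_dvd_of_pow_eq_one hj
  have h5 := orderOf_dvd_of_pow_eq_one hxp
  rcases (Nat.dvd_prime hp).mp h5 with h6 | h6
  · exact orderOf_eq_one_iff.mp h6
  · rw [h6] at h4
    exact absurd ((Nat.prime_dvd_prime_iff_eq hp hr.out).mp (hp.dvd_of_dvd_pow h4)) hpr

end Vale.Agent.P180.R2.H589.Mz
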