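import Vale.Agent.P180.R2.H589.Mz.Inv
import Vale.Agent.P180.R2.H589.Mz.Gp
import Mathlib.LinearAlgebra.Matrix.ToLin

/-!
P180: `p` does not divide the order of the centre of a perfect central extension of `POmega(V)`,
`p` a linear prime; all dimensions.
-/

set_option linter.all false

namespace Vale.Agent.P180.R2.H589.Mz

open Polynomial Module
open LinearMap (BilinForm)
open O8 (QB Sg)

variable {K V : Type} [Field K] [Finite K] [AddCommGroup V] [Module K V] [Module.Finite K V]
  {p r : ℕ} {q : V → K} {B : BilinForm K V}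

/-- the stabiliser -/
def Yg (B : BilinForm K V) (X : Subgroup (V ≃ₗ[K] V)) (U : Submodule K V) : Subgroup X where
  carrier := {g | (∀ x, (g : V ≃ₗ[K] V) x ∈ U ↔ x ∈ U) ∧
    (∀ x, (g : V ≃ₗ[K] V) x ∈ Pp B U ↔ x ∈ Pp B U) ∧
    ∀ x ∈ Pp B U, (g : V ≃ₗ[K] V) x - x ∈ U}
  mul_mem' := by
    rintro a b ⟨ha1, ha2, ha3⟩ ⟨hb1, hb2, hb3⟩
    refine ⟨fun x => (ha1 _).trans (hb1 x), fun x => (ha2 _).trans (hb2 x), fun x hx => ?_⟩
    have h1 : ((a * b : X) : V ≃ₗ[K] V) x - x =
        (a : V ≃ₗ[K] V) ((b : V ≃ₗ[K] V) x - x) + ((a : V ≃ₗ[K] V) x - x) := by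
      rw [map_sub, sub_add_sub_cancel]; rfl
    rw [h1]
    exact U.add_mem ((ha1 _).mpr (hb3 x hx)) (ha3 x hx)
  one_mem' := by
    refine ⟨fun x => Iff.rfl, fun x => Iff.rfl, fun x _ => ?_⟩
    change x - x ∈ U
    rw [sub_self]
    exact U.zero_mem
  inv_mem' := by
    rintro a ⟨ha1, ha2, ha3⟩
    have h2 : ∀ x, (a : V ≃ₗ[K] V) (((a⁻¹ : X) : V ≃ₗ[K] V) x) = x := fun x =>
      (a : V ≃ₗ[K] V).apply_symm_apply x
    refine ⟨fun x => ?_, fun x => ?_, fun x hx => ?_⟩
    · rw [← ha1, h2]
    · rw [← ha2, h2]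
    · rw [← ha1, map_sub, h2, ← neg_sub]
      exact U.neg_mem (ha3 x hx)

variable {X : Subgroup (V ≃ₗ[K] V)} {U : Submodule K V}

/-- the action on `U` -/
noncomputable def resU (B : BilinForm K V) (X : Subgroup (V ≃ₗ[K] V)) (U : Submodule K V) :
    Yg B X U →* Module.End K U where
  toFun g := (((g : X) : V ≃ₗ[K] V) : V →ₗ[K] V).restrict (fun x hx => (g.2.1 x).mpr hx)
  map_one' := by
    ext x
    rfl
  map_mul' a b := by
    ext x
    rfl

/-- the action on `U` in coordinates -/
noncomputable def rhoU (B : BilinForm K V) (X : Subgroup (V ≃ₗ[K] V)) (U : Submodule K V) :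
    Yg B X U →* Matrix.GeneralLinearGroup (Fin (finrank K U)) K :=
  MonoidHom.toHomUnits
    (((LinearMap.toMatrixAlgEquiv (finBasis K U) : Module.End K U →* _)).comp (resU B X U))

theorem rhoU_eq_one {g : Yg B X U} (h : rhoU B X U g = 1) :
    ∀ x ∈ U, ((g : X) : V ≃ₗ[K] V) x = x := by
  intro x hx
  have h1 : LinearMap.toMatrixAlgEquiv (finBasis K U) (resU B X U g) = 1 :=
    congrArg Units.val h
  have h2 : resU B X U g = 1 := by
    apply (LinearMap.toMatrixAlgEquiv (finBasis K U)).injective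
    rw [h1, map_one]
  have h3 := congrArg (fun e : Module.End K U => ((e ⟨x, hx⟩ : U) : V)) h2
  exact h3

theorem rhoU_surj (s : Sg q B X) (hnd : ∀ x, (∀ y, B x y = 0) → x = 0)
    (hU : ∀ x ∈ U, q x = 0) (g : Matrix.SpecialLinearGroup (Fin (finrank K U)) K) :
    ∃ y, rhoU B X U y = (g : Matrix.GeneralLinearGroup (Fin (finrank K U)) K) := by
  rcases Nat.eq_zero_or_pos (finrank K U) with h0 | h0
  · refine ⟨1, ?_⟩
    haveI : IsEmpty (Fin (finrank K U)) := by rw [h0]; infer_instance
    apply Units.ext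
    exact Subsingleton.elim _ _
  · refine Sch.tv_induction h0 (fun g => ∃ y, rhoU B X U y =
      (g : Matrix.GeneralLinearGroup (Fin (finrank K U)) K)) ?_ ⟨1, ?_⟩ ?_ g
    · intro i j hij c
      obtain ⟨b, hb⟩ : ∃ b, b = finBasis K U := ⟨_, rfl⟩
      obtain ⟨y, hyX, hy1, hy2, hy3⟩ := exists_tv s hnd hU (u := (b i : V)) (b i).2
        (c • b.coord j) (by
          change c • (b.coord j) (b i) = 0
          rw [Basis.coord_apply, Basis.repr_self, Finsupp.single_eq_of_ne hij.symm, smul_zero])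
      have hUP : ∀ x ∈ U, x ∈ Pp B U := by
        intro x hx y hy
        have h1 := s.qb.add x y
        rw [hU _ (U.add_mem hx hy), hU x hx, hU y hy] at h1
        linear_combination -h1
      have hyY : (⟨y, hyX⟩ : X) ∈ Yg B X U := by
        refine ⟨hy2, fun x => ⟨fun hx z hz => ?_, fun hx => ?_⟩, hy3⟩
        · rw [← s.isoB hyX]
          exact hx _ ((hy2 z).mpr hz)
        · have h1 := (Pp B U).add_mem (hUP _ (hy3 x hx)) hx
          rwa [sub_add_cancel] at h1
      refine ⟨⟨⟨y, hyX⟩, hyY⟩, ?_⟩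
      apply Units.ext
      change LinearMap.toMatrixAlgEquiv (finBasis K U) (resU B X U ⟨⟨y, hyX⟩, hyY⟩) = _
      rw [← hb]
      ext k l
      rw [LinearMap.toMatrixAlgEquiv_apply]
      have h1 : resU B X U ⟨⟨y, hyX⟩, hyY⟩ (b l) = b l + (c * b.repr (b l) j) • b i := by
        apply Subtype.ext
        exact hy1 (b l) (b l).2
      rw [h1, map_add, map_smul, Finsupp.add_apply, Finsupp.smul_apply, Basis.repr_self,
        Basis.repr_self]
      change _ = ((Matrix.SpecialLinearGroup.transvection hij c :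
        Matrix.SpecialLinearGroup (Fin (finrank K U)) K) : Matrix _ _ K) k l
      have h2 : ((Matrix.SpecialLinearGroup.transvection hij c :
        Matrix.SpecialLinearGroup (Fin (finrank K U)) K) : Matrix _ _ K) k l =
          (1 : Matrix _ _ K) k l + (Matrix.single i j c) k l := rfl
      rw [h2, Matrix.one_apply, Matrix.single_apply, Finsupp.single_apply, Finsupp.single_apply,
        Finsupp.single_apply, smul_eq_mul]
      by_cases hkl : k = l
      · subst hkl
        by_cases hik : i = k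
        · by_cases hjk : j = k
          · exact absurd (hik.trans hjk.symm) hij
          · simp [hik, hjk, Ne.symm hjk]
        · simp [hik]
      · by_cases hik : i = k
        · by_cases hjl : j = l
          · simp [hkl, Ne.symm hkl, hik, hjl]
          · simp [hkl, Ne.symm hkl, hik, hjl, Ne.symm hjl]
        · simp [hkl, Ne.symm hkl, hik]
    · rw [map_one]
      apply Units.ext
      rfl
    · rintro a b ⟨x, hx⟩ ⟨y, hy⟩
      refine ⟨x * y, ?_⟩
      rw [map_mul, hx, hy]
      apply Units.ext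
      rfl

end Vale.Agent.P180.R2.H589.Mz
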