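import Vale.Agent.P180.R2.H589.Mz.St

/-!
P180: `p`-groups of isometries, `p` a linear prime: the stable totally singular subspace.
-/

set_option linter.all false

namespace Vale.Agent.P180.R2.H589.Mz

open Polynomial Module
open LinearMap (BilinForm)
open O8 (QB Sg)

variable {K V : Type*} [Field K] [Finite K] [AddCommGroup V] [Module K V] [Module.Finite K V]
  {p r : ℕ} {q : V → K} {B : BilinForm K V}

theorem coe_pow (z : V ≃ₗ[K] V) (n : ℕ) (x : V) :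
    ((z : V →ₗ[K] V) ^ n) x = (z ^ n) x := by
  induction n generalizing x with
  | zero => rfl
  | succ n ih =>
    rw [pow_succ, pow_succ]
    exact ih (z x)

/-- **the stable subspace** -/
theorem exists_stable [hr : Fact r.Prime] [CharP K r] (h : QB q B) (hp : p.Prime)
    (hpK : (p : K) ≠ 0) (hlin : ∀ j, (∀ c : K, c = c ^ (r ^ j)) → ¬ p ∣ r ^ j + 1)
    (P : Subgroup (V ≃ₗ[K] V)) (hP : IsPGroup p P) (hPi : ∀ g ∈ P, ∀ x, q (g x) = q x) :
    ∃ U : Submodule K V, (∀ x ∈ U, q x = 0) ∧ (∀ g ∈ P, ∀ x ∈ U, g x ∈ U) ∧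
      ∀ g ∈ P, ∀ x ∈ Pp B U, g x - x ∈ U := by
  obtain ⟨U, ⟨hs, hi⟩, hmax⟩ : ∃ U : Submodule K V,
      ((∀ x ∈ U, q x = 0) ∧ ∀ g ∈ P, ∀ x ∈ U, g x ∈ U) ∧
      ∀ U' : Submodule K V, ((∀ x ∈ U', q x = 0) ∧ ∀ g ∈ P, ∀ x ∈ U', g x ∈ U') → U ≤ U' →
        U' ≤ U := by
    obtain ⟨U, hU, hmax⟩ := WellFounded.has_min
      (wellFounded_gt : WellFounded (fun a b : Submodule K V => a > b))
      {U | (∀ x ∈ U, q x = 0) ∧ ∀ g ∈ P, ∀ x ∈ U, g x ∈ U}
      ⟨⊥, fun x hx => by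
        rw [(Submodule.mem_bot K).mp hx]
        have h1 := h.sm 0 0
        rwa [zero_smul, mul_zero, zero_mul] at h1, fun g _ x hx => by
        rw [(Submodule.mem_bot K).mp hx, map_zero]
        exact Submodule.zero_mem _⟩
    refine ⟨U, hU, fun U' hU' hle => ?_⟩
    by_contra hn
    exact hmax U' hU' (lt_of_le_not_ge hle hn)
  refine ⟨U, hs, hi, ?_⟩
  by_contra hcon
  push Not at hcon
  obtain ⟨g₀, hg₀, v, hv, hgv⟩ := hcon
  haveI : Finite V := Module.finite_of_finite K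
  haveI : Finite (V ≃ₗ[K] V) := Finite.of_injective (fun g : V ≃ₗ[K] V => (g : V → V))
    DFunLike.coe_injective
  haveI : Fact p.Prime := ⟨hp⟩
  have hUP : U ≤ Pp B U := by
    intro x hx y hy
    have h1 := h.add x y
    rw [hs _ (U.add_mem hx hy), hs x hx, hs y hy] at h1
    linear_combination -h1
  have hOp : ∀ g ∈ P, Op q B U (g : V →ₗ[K] V) := fun g hg => ⟨hPi g hg, hi g hg⟩
  have hPp : ∀ g ∈ P, ∀ x ∈ Pp B U, g x ∈ Pp B U := by
    intro g hg x hx y hy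
    have h1 : g (g⁻¹ y) = y := g.apply_symm_apply y
    have h2 := (hOp g hg).isoB h x (g⁻¹ y)
    change B (g x) (g (g⁻¹ y)) = _ at h2
    rw [h1] at h2
    rw [h2]
    exact hx _ (hi _ (P.inv_mem hg) y hy)
  let P₀ : Subgroup P :=
    { carrier := {g | ∀ x ∈ Pp B U, (g : V ≃ₗ[K] V) x - x ∈ U}
      mul_mem' := by
        intro a b ha hb x hx
        have h1 : ((a * b : P) : V ≃ₗ[K] V) x - x =
            (a : V ≃ₗ[K] V) ((b : V ≃ₗ[K] V) x - x) + ((a : V ≃ₗ[K] V) x - x) := by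
          rw [map_sub, sub_add_sub_cancel]; rfl
        rw [h1]
        exact U.add_mem (hi _ a.2 _ (hb x hx)) (ha x hx)
      one_mem' := by
        intro x _
        change x - x ∈ U
        rw [sub_self]
        exact U.zero_mem
      inv_mem' := by
        intro a ha x hx
        have h1 : ((a⁻¹ : P) : V ≃ₗ[K] V) x - x =
            -(((a⁻¹ : P) : V ≃ₗ[K] V) ((a : V ≃ₗ[K] V) x - x)) := by
          rw [map_sub, neg_sub]
          have h2 : ((a⁻¹ : P) : V ≃ₗ[K] V) ((a : V ≃ₗ[K] V) x) = x :=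
            (a : V ≃ₗ[K] V).symm_apply_apply x
          rw [h2]
        rw [h1]
        exact U.neg_mem (hi _ (a⁻¹ : P).2 _ (ha x hx)) }
  have hP₀ : ∀ g : P, g ∈ P₀ ↔ ∀ x ∈ Pp B U, (g : V ≃ₗ[K] V) x - x ∈ U := fun g => Iff.rfl
  haveI hn : P₀.Normal := by
    refine ⟨fun a ha g => ?_⟩
    rw [hP₀] at ha ⊢
    intro x hx
    have h1 : ((g * a * g⁻¹ : P) : V ≃ₗ[K] V) x - x =
        (g : V ≃ₗ[K] V) ((a : V ≃ₗ[K] V) (((g⁻¹ : P) : V ≃ₗ[K] V) x) -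
          (((g⁻¹ : P) : V ≃ₗ[K] V) x)) := by
      have h2 : (g : V ≃ₗ[K] V) (((g⁻¹ : P) : V ≃ₗ[K] V) x) = x :=
        (g : V ≃ₗ[K] V).apply_symm_apply x
      rw [map_sub, h2]
      rfl
    rw [h1]
    exact hi _ g.2 _ (ha _ (hPp _ (g⁻¹ : P).2 _ hx))
  have hg₀' : (⟨g₀, hg₀⟩ : P) ∉ P₀ := fun h1 => hgv (h1 v hv)
  haveI : Nontrivial (P ⧸ P₀) := by
    refine ⟨⟨QuotientGroup.mk ⟨g₀, hg₀⟩, 1, fun h1 => hg₀' ?_⟩⟩
    exact (QuotientGroup.eq_one_iff _).mp h1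
  have hq : IsPGroup p (P ⧸ P₀) := hP.to_quotient P₀
  haveI hcn := hq.center_nontrivial
  obtain ⟨n, hn0, hcard⟩ := ((hq.to_subgroup (Subgroup.center (P ⧸ P₀))).nontrivial_iff_card).mp
    hcn
  obtain ⟨c, hc⟩ := exists_prime_orderOf_dvd_card' (G := Subgroup.center (P ⧸ P₀)) p (by
    rw [hcard]
    exact dvd_pow_self p (by omega))
  obtain ⟨z, hz⟩ := QuotientGroup.mk_surjective c.1
  have hz1 : z ∉ P₀ := by
    intro h1
    have h2 : (c : P ⧸ P₀) = 1 := by rw [← hz]; exact (QuotientGroup.eq_one_iff z).mpr h1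
    have h3 : c = 1 := Subtype.ext h2
    rw [h3, orderOf_one] at hc
    exact hp.one_lt.ne hc
  have hzp : z ^ p ∈ P₀ := by
    rw [← QuotientGroup.eq_one_iff, QuotientGroup.mk_pow, hz]
    have h1 : c ^ p = 1 := by rw [← hc]; exact pow_orderOf_eq_one c
    exact congrArg Subtype.val h1
  have hzc : ∀ g : P, ∀ x ∈ Pp B U, (z : V ≃ₗ[K] V) ((g : V ≃ₗ[K] V) x) -
      (g : V ≃ₗ[K] V) ((z : V ≃ₗ[K] V) x) ∈ U := by
    intro g x hx
    have h1 : (g * z)⁻¹ * (z * g) ∈ P₀ := by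
      rw [← QuotientGroup.eq_one_iff, QuotientGroup.mk_mul, QuotientGroup.mk_inv,
        QuotientGroup.mk_mul, QuotientGroup.mk_mul, hz]
      rw [Subgroup.mem_center_iff.mp c.2 (QuotientGroup.mk g), inv_mul_cancel]
    obtain ⟨w, hw⟩ : ∃ w, w = (g * z)⁻¹ * (z * g) := ⟨_, rfl⟩
    rw [← hw] at h1
    have h2 : z * g = g * z * w := by rw [hw]; group
    have h3 : (z : V ≃ₗ[K] V) ((g : V ≃ₗ[K] V) x) =
        (g : V ≃ₗ[K] V) ((z : V ≃ₗ[K] V) ((w : V ≃ₗ[K] V) x)) :=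
      congrArg (fun y : P => (y : V ≃ₗ[K] V) x) h2
    rw [h3, ← map_sub, ← map_sub]
    exact hi _ g.2 _ (hi _ z.2 _ (h1 x hx))
  rw [hP₀] at hz1 hzp
  push Not at hz1
  obtain ⟨v', hv', hzv'⟩ := hz1
  obtain ⟨μ, hμ, w, hw, hwU, hμw⟩ := exists_bigger (r := r) h hs (hOp z z.2) (hPp z z.2) hp hpK
    hlin (fun x hx => by
      rw [coe_pow]
      exact hzp x hx) hv' hzv'
  apply hwU
  refine hmax (Pp B U ⊓ U.comap (aeval ((z : V ≃ₗ[K] V) : V →ₗ[K] V) μ)) ⟨?_, ?_⟩ ?_ ⟨hw, hμw⟩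
  · intro x hx
    exact hμ x hx.1 hx.2
  · intro g hg x hx
    refine ⟨hPp g hg x hx.1, ?_⟩
    have h1 := pol_comm (U := U) (W := Pp B U) (z := ((z : V ≃ₗ[K] V) : V →ₗ[K] V)) hUP
      (hi z z.2) (hPp z z.2) (g := (g : V →ₗ[K] V)) (hPp g hg) (fun x hx => hzc ⟨g, hg⟩ x hx) μ
      hx.1
    have h2 := U.add_mem h1 (hi g hg _ hx.2)
    change aeval ((z : V ≃ₗ[K] V) : V →ₗ[K] V) μ (g x) -
      g (aeval ((z : V ≃ₗ[K] V) : V →ₗ[K] V) μ x) +
      g (aeval ((z : V ≃ₗ[K] V) : V →ₗ[K] V) μ x) ∈ U at h2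
    rwa [sub_add_cancel] at h2
  · intro x hx
    exact ⟨hUP hx, pol_mem (hi z z.2) μ hx⟩

/-- transvections of a totally singular subspace -/
theorem exists_tv {X : Subgroup (V ≃ₗ[K] V)} (s : Sg q B X)
    (hnd : ∀ x, (∀ y, B x y = 0) → x = 0) {U : Submodule K V} (hU : ∀ x ∈ U, q x = 0) {u : V}
    (hu : u ∈ U) (f : U →ₗ[K] K) (hf : f ⟨u, hu⟩ = 0) :
    ∃ g ∈ X, (∀ x (hx : x ∈ U), g x = x + f ⟨x, hx⟩ • u) ∧ (∀ x, g x ∈ U ↔ x ∈ U) ∧
      ∀ x ∈ Pp B U, g x - x ∈ U := by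
  have h := s.qb
  have hUP : ∀ x ∈ U, ∀ y ∈ U, B x y = 0 := by
    intro x hx y hy
    have h1 := h.add x y
    rw [hU _ (U.add_mem hx hy), hU x hx, hU y hy] at h1
    linear_combination -h1
  by_cases hf0 : ∀ x, f x = 0
  · refine ⟨1, X.one_mem, fun x hx => ?_, fun x => Iff.rfl, fun x _ => ?_⟩
    · rw [hf0, zero_smul, add_zero]; rfl
    · change x - x ∈ U
      rw [sub_self]
      exact U.zero_mem
  push Not at hf0
  obtain ⟨x₀, hx₀⟩ := hf0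
  obtain ⟨f', hf'⟩ := LinearMap.exists_extend (-f)
  have hf'' : ∀ x (hx : x ∈ U), f' x = -f ⟨x, hx⟩ := fun x hx =>
    congrArg (fun e : U →ₗ[K] K => e ⟨x, hx⟩) hf'
  have hB : Function.Surjective B := by
    have h1 : Function.Injective B := by
      rw [injective_iff_map_eq_zero]
      intro x hx
      exact hnd x fun y => by rw [hx]; rfl
    exact (LinearMap.injective_iff_surjective_of_finrank_eq_finrank
      (Subspace.dual_finrank_eq (K := K) (V := V)).symm).mp h1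
  obtain ⟨w₀, hw₀⟩ := hB f'
  have hw₀' : ∀ x, B w₀ x = f' x := fun x => congrArg (fun e : Module.Dual K V => e x) hw₀
  have h1 : B w₀ x₀ ≠ 0 := by
    rw [hw₀', hf'' x₀ x₀.2]
    exact neg_ne_zero.mpr hx₀
  obtain ⟨w, hw⟩ : ∃ w, w = w₀ + (-(q w₀ * (B w₀ x₀)⁻¹)) • (x₀ : V) := ⟨_, rfl⟩
  have hqw : q w = 0 := by
    rw [hw, h.add, h.sm, hU x₀ x₀.2, map_smul, smul_eq_mul]
    field_simp
    ring
  have hBw : ∀ x (hx : x ∈ U), B x w = -f ⟨x, hx⟩ := by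
    intro x hx
    rw [hw, map_add, map_smul, hUP x hx x₀ x₀.2, smul_zero, add_zero, h.symm w₀ x, hw₀', hf'' x hx]
  have huw : B u w = 0 := by rw [hBw u hu, hf, neg_zero]
  obtain ⟨g, hg, hgx⟩ := s.rx u w (hU u hu) hqw huw
  have hgu : g u = u := by
    rw [hgx, hUP u hu u hu, huw, zero_smul, zero_smul, add_zero, sub_zero]
  refine ⟨g, hg, fun x hx => ?_, fun x => ⟨fun hx => ?_, fun hx => ?_⟩, fun x hx => ?_⟩
  · rw [hgx, hUP x hx u hu, hBw x hx, zero_smul, add_zero, neg_smul, sub_neg_eq_add]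
  · have h2 : B x u = 0 := by
      rw [← s.isoB hg, hgu]
      exact hUP _ hx u hu
    have h3 := U.add_mem hx (U.smul_mem (B x w) hu)
    rwa [hgx, h2, zero_smul, add_zero, sub_add_cancel] at h3
  · rw [hgx, hUP x hx u hu, zero_smul, add_zero]
    exact U.sub_mem hx (U.smul_mem _ hu)
  · rw [hgx, hx u hu, zero_smul, add_zero]
    have h3 : x - B x w • u - x = -(B x w • u) := by abel
    rw [h3]
    exact U.neg_mem (U.smul_mem _ hu)

end Vale.Agent.P180.R2.H589.Mz
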