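import Mathlib.FieldTheory.Finite.Extension
import Mathlib.RingTheory.AdjoinRoot
import Mathlib.FieldTheory.Finiteness
import Mathlib.FieldTheory.Finite.Basic

/-!
P180: the irreducible factors of `1 + X + ... + X^(p-1)` over a finite field for which `p` is a
linear prime.
-/

set_option linter.all false

namespace Vale.Agent.P180.R2.H589.Mz

open Polynomial

/-- Every ring endomorphism of a finite field is a power of the Frobenius. -/
theorem exists_frobA {F : Type*} [Field F] [Finite F] {r : ℕ} [Fact r.Prime] [CharP F r]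
    (σ : F →+* F) : ∃ j : ℕ, ∀ x, σ x = x ^ (r ^ j) := by
  letI : Algebra (ZMod r) F := ZMod.algebra F r
  have := Fintype.ofFinite F
  have hc : ∀ c : ZMod r, σ (algebraMap (ZMod r) F c) = algebraMap (ZMod r) F c := fun c =>
    congrArg (fun φ : ZMod r →+* F => φ c)
      (Subsingleton.elim (σ.comp (algebraMap (ZMod r) F)) (algebraMap (ZMod r) F))
  let σ' : F →ₐ[ZMod r] F := { σ with commutes' := hc }
  obtain ⟨n, hn⟩ := (FiniteField.bijective_frobeniusAlgHom_pow (K := ZMod r) (L := F)).2 σ'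
  refine ⟨n.1, fun x => ?_⟩
  have h1 := DFunLike.congr_fun hn x
  change ((FiniteField.frobeniusAlgHom (ZMod r) F) ^ n.1) x = σ x at h1
  rw [AlgHom.coe_pow, FiniteField.coe_frobeniusAlgHom, pow_iterate, ZMod.card] at h1
  exact h1.symm

variable {K : Type*} [Field K] [Finite K] {p r : ℕ}

/-- the cyclotomic sum -/
noncomputable def gs (K : Type*) [Field K] (p : ℕ) : K[X] := ∑ i ∈ Finset.range p, X ^ i

theorem gs_mul : gs K p * (X - 1) = X ^ p - 1 := by
  rw [gs]
  exact geom_sum_mul X p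

theorem eval_gs : (gs K p).eval 1 = (p : K) := by
  rw [gs, eval_finset_sum]
  simp

theorem gs_ne (hpK : (p : K) ≠ 0) : gs K p ≠ 0 := by
  intro h
  apply hpK
  rw [← eval_gs, h, eval_zero]

/-- a linear prime: the factors of the cyclotomic sum are not selfreciprocal -/
theorem not_dvd_comp [hr : Fact r.Prime] [CharP K r] (hp : p.Prime) {μ : K[X]}
    (hμ : Irreducible μ) (hd : μ ∣ gs K p) (hpK : (p : K) ≠ 0)
    (hlin : ∀ j, (∀ c : K, c = c ^ (r ^ j)) → ¬ p ∣ r ^ j + 1) :
    ¬ μ ∣ μ.comp (X ^ (p - 1)) := by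
  intro hdc
  haveI : Fact (Irreducible μ) := ⟨hμ⟩
  have hp1 : 1 ≤ p := hp.one_lt.le
  let x : AdjoinRoot μ := AdjoinRoot.root μ
  haveI : CharP (AdjoinRoot μ) r :=
    charP_of_injective_algebraMap (algebraMap K (AdjoinRoot μ)).injective r
  haveI : Module.Finite K (AdjoinRoot μ) := (AdjoinRoot.powerBasis hμ.ne_zero).finite
  haveI : Finite (AdjoinRoot μ) := Module.finite_of_finite K
  have h0 : aeval x μ = 0 := by
    rw [AdjoinRoot.aeval_eq]
    exact AdjoinRoot.mk_self
  have h1 : aeval x (gs K p) = 0 := by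
    obtain ⟨f, hf⟩ := hd
    rw [hf, map_mul, h0, zero_mul]
  have h2 : x ^ p = 1 := by
    have h3 := congrArg (aeval x) (gs_mul (K := K) (p := p))
    rw [map_mul, h1, zero_mul, map_sub, map_pow, aeval_X, map_one] at h3
    exact (sub_eq_zero.mp h3.symm)
  have h4 : x ≠ 1 := by
    intro h5
    rw [h5] at h1
    have h6 : aeval (1 : AdjoinRoot μ) (gs K p) = algebraMap K (AdjoinRoot μ) (p : K) := by
      rw [← eval_gs, ← map_one (algebraMap K (AdjoinRoot μ)), aeval_algebraMap_apply_eq_algebraMap_eval]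
    rw [h6] at h1
    exact hpK ((map_eq_zero _).mp h1)
  haveI : Fact p.Prime := ⟨hp⟩
  have h5 : orderOf x = p := orderOf_eq_prime h2 h4
  have h6 : aeval (x ^ (p - 1)) μ = 0 := by
    obtain ⟨f, hf⟩ := hdc
    have h7 : aeval x (μ.comp (X ^ (p - 1))) = 0 := by rw [hf, map_mul, h0, zero_mul]
    rwa [aeval_comp, map_pow, aeval_X] at h7
  let τ : AdjoinRoot μ →ₐ[K] AdjoinRoot μ :=
    AdjoinRoot.liftAlgHom μ (Algebra.ofId K (AdjoinRoot μ)) (x ^ (p - 1)) h6
  have hτ : τ x = x ^ (p - 1) := AdjoinRoot.liftAlgHom_root _ _ _ _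
  obtain ⟨j, hj⟩ := exists_frobA (r := r) (τ : AdjoinRoot μ →+* AdjoinRoot μ)
  apply hlin j
  · intro c
    apply (algebraMap K (AdjoinRoot μ)).injective
    rw [map_pow, ← hj]
    exact (τ.commutes c).symm
  · rw [← h5]
    apply orderOf_dvd_of_pow_eq_one
    have h7 : x ^ (r ^ j) = x ^ (p - 1) := (hj x).symm.trans hτ
    rw [pow_succ, h7, ← pow_succ, Nat.sub_add_cancel hp1, h2]

/-- the factors are prime to their reciprocals and to `X - 1` -/
theorem coprimes [hr : Fact r.Prime] [CharP K r] (hp : p.Prime) {μ : K[X]}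
    (hμ : Irreducible μ) (hd : μ ∣ gs K p) (hpK : (p : K) ≠ 0)
    (hlin : ∀ j, (∀ c : K, c = c ^ (r ^ j)) → ¬ p ∣ r ^ j + 1) :
    IsCoprime μ (μ.comp (X ^ (p - 1))) ∧ IsCoprime μ (X - 1) := by
  refine ⟨(hμ.coprime_iff_not_dvd).mpr (not_dvd_comp hp hμ hd hpK hlin),
    (hμ.coprime_iff_not_dvd).mpr fun h => ?_⟩
  have h1 : (X - 1 : K[X]) ∣ μ := by
    have h2 : Irreducible (X - 1 : K[X]) := by
      rw [← C_1]
      exact irreducible_X_sub_C 1
    exact (hμ.associated_of_dvd h2 h).symm.dvd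
  obtain ⟨f, hf⟩ := h1.trans hd
  apply hpK
  rw [← eval_gs, hf, eval_mul, eval_sub, eval_X, eval_one, sub_self, zero_mul]

end Vale.Agent.P180.R2.H589.Mz
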