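import Vale.Agent.P180.R2.H589.Mz.Pl
import Vale.Agent.P180.R2.H589.O8.Orb
import Mathlib.GroupTheory.PGroup
import Mathlib.GroupTheory.Sylow

/-!
P180: a `p`-group of isometries, `p` odd and linear, stabilises a totally singular subspace `U`
and acts trivially on `U^perp / U`.
-/

set_option linter.all false

namespace Vale.Agent.P180.R2.H589.Mz

open Polynomial Module
open LinearMap (BilinForm)
open O8 (QB)

variable {K V : Type*} [Field K] [Finite K] [AddCommGroup V] [Module K V] {p r : ℕ}
  {q : V → K} {B : BilinForm K V}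

/-- isometries which are defined on `U` and on `U^perp` -/
structure Op (q : V → K) (B : BilinForm K V) (U : Submodule K V) (z : V →ₗ[K] V) : Prop where
  iso : ∀ x, q (z x) = q x
  u : ∀ x ∈ U, z x ∈ U

variable {U : Submodule K V} {z : V →ₗ[K] V}

/-- the orthogonal space -/
def Pp (B : BilinForm K V) (U : Submodule K V) : Submodule K V where
  carrier := {x | ∀ y ∈ U, B x y = 0}
  add_mem' := fun {a b} ha hb y hy => by
    rw [map_add, LinearMap.add_apply, ha y hy, hb y hy, add_zero]
  zero_mem' := fun y _ => by rw [map_zero, LinearMap.zero_apply]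
  smul_mem' := fun c x hx y hy => by rw [map_smul, LinearMap.smul_apply, hx y hy, smul_zero]

theorem Op.isoB (h : QB q B) (o : Op q B U z) (x y : V) : B (z x) (z y) = B x y := by
  have h1 := h.add (z x) (z y)
  rw [← map_add, o.iso, o.iso, o.iso, h.add x y] at h1
  linear_combination -h1

/-- polynomials in an operator -/
theorem pol_mem {W : Submodule K V} (hz : ∀ x ∈ W, z x ∈ W) (f : K[X]) {x : V} (hx : x ∈ W) :
    aeval z f x ∈ W := by
  induction f using Polynomial.induction_on' with
  | add f g hf hg =>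
    rw [map_add, LinearMap.add_apply]
    exact W.add_mem hf hg
  | monomial n a =>
    rw [aeval_monomial]
    change (algebraMap K (Module.End K V) a) ((z ^ n) x) ∈ W
    rw [Module.algebraMap_end_apply]
    refine W.smul_mem _ ?_
    induction n with
    | zero => exact hx
    | succ n ih =>
      rw [pow_succ']
      exact hz _ ih

/-- operators which commute modulo `U` -/
theorem pol_comm {W : Submodule K V} (hUW : U ≤ W) (hzU : ∀ x ∈ U, z x ∈ U)
    (hz : ∀ x ∈ W, z x ∈ W) {g : V →ₗ[K] V} (hg : ∀ x ∈ W, g x ∈ W)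
    (hc : ∀ x ∈ W, z (g x) - g (z x) ∈ U) (f : K[X]) {x : V} (hx : x ∈ W) :
    aeval z f (g x) - g (aeval z f x) ∈ U := by
  induction f using Polynomial.induction_on' with
  | add f g hf hg =>
    rw [map_add, LinearMap.add_apply, LinearMap.add_apply, map_add, add_sub_add_comm]
    exact U.add_mem hf hg
  | monomial n a =>
    rw [aeval_monomial]
    change (algebraMap K (Module.End K V) a) ((z ^ n) (g x)) -
      g ((algebraMap K (Module.End K V) a) ((z ^ n) x)) ∈ U
    rw [Module.algebraMap_end_apply, Module.algebraMap_end_apply, map_smul, ← smul_sub]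
    refine U.smul_mem _ ?_
    have hzn : ∀ n : ℕ, (z ^ n) x ∈ W := by
      intro n
      induction n with
      | zero => exact hx
      | succ n ih =>
        rw [pow_succ']
        exact hz _ ih
    induction n with
    | zero =>
      change g x - g x ∈ U
      rw [sub_self]
      exact U.zero_mem
    | succ n ih =>
      rw [pow_succ']
      change z ((z ^ n) (g x)) - g (z ((z ^ n) x)) ∈ U
      have h1 := U.add_mem (hzU _ ih) (hc _ (hzn n))
      rw [map_sub] at h1
      rwa [sub_add_sub_cancel] at h1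

/-- the adjoint of an operator of order `p` modulo `U` -/
theorem pol_adj (h : QB q B) (o : Op q B U z) (hU : ∀ x ∈ Pp B U, z x ∈ Pp B U)
    (hp1 : 1 ≤ p) (hp : ∀ x ∈ Pp B U, (z ^ p) x - x ∈ U) (f : K[X]) :
    ∀ x ∈ Pp B U, ∀ y ∈ Pp B U, B (aeval z (f.comp (X ^ (p - 1))) x) y = B x (aeval z f y) := by
  have h1 : ∀ x ∈ Pp B U, ∀ y ∈ Pp B U, B ((z ^ (p - 1)) x) y = B x (z y) := by
    intro x hx y hy
    rw [← o.isoB h]
    have h2 : z ((z ^ (p - 1)) x) = (z ^ p) x := by
      rw [← Module.End.mul_apply, ← pow_succ', Nat.sub_add_cancel hp1]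
    have h3 : (z ^ p) x = x + ((z ^ p) x - x) := by rw [add_sub_cancel]
    rw [h2, h3, map_add, LinearMap.add_apply, h.symm (z y) ((z ^ p) x - x),
      hU y hy _ (hp x hx), add_zero]
  have hzp : ∀ x ∈ Pp B U, (z ^ (p - 1)) x ∈ Pp B U := by
    intro x hx
    have h2 := pol_mem hU (X ^ (p - 1)) hx
    rwa [map_pow, aeval_X] at h2
  intro x hx y hy
  rw [aeval_comp, map_pow, aeval_X]
  induction f using Polynomial.induction_on' with
  | add f g hf hg =>
    rw [map_add, map_add, LinearMap.add_apply, LinearMap.add_apply, map_add, LinearMap.add_apply,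
      map_add, hf, hg]
  | monomial n a =>
    rw [aeval_monomial, aeval_monomial]
    change B ((algebraMap K (Module.End K V) a) (((z ^ (p - 1)) ^ n) x)) y =
      B x ((algebraMap K (Module.End K V) a) ((z ^ n) y))
    rw [Module.algebraMap_end_apply, Module.algebraMap_end_apply, map_smul, map_smul,
      LinearMap.smul_apply]
    have h3 : ∀ n : ℕ, ∀ x ∈ Pp B U, ∀ y ∈ Pp B U,
        B (((z ^ (p - 1)) ^ n) x) y = B x ((z ^ n) y) := by
      intro n
      induction n with
      | zero => intro x _ y _; rfl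
      | succ n ih =>
        intro x hx y hy
        rw [pow_succ, pow_succ']
        change B (((z ^ (p - 1)) ^ n) ((z ^ (p - 1)) x)) y = B x (z ((z ^ n) y))
        rw [ih _ (hzp x hx) y hy, h1 x hx _ ?_]
        have h4 := pol_mem hU (X ^ n) hy
        rwa [map_pow, aeval_X] at h4
    rw [h3 n x hx y hy]

/-- an irreducible constituent -/
theorem exists_factor {W : Submodule K V} (hz : ∀ x ∈ W, z x ∈ W) (hzU : ∀ x ∈ U, z x ∈ U)
    {g : K[X]} (hg : g ≠ 0) :
    ∀ f : K[X], f ∣ g → (∃ w ∈ W, w ∉ U ∧ aeval z f w ∈ U) →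
      ∃ μ : K[X], Irreducible μ ∧ μ ∣ g ∧ ∃ w ∈ W, w ∉ U ∧ aeval z μ w ∈ U := by
  intro f
  induction f using WfDvdMonoid.induction_on_irreducible with
  | zero =>
    intro h
    exact absurd (zero_dvd_iff.mp h) hg
  | unit u hu =>
    rintro _ ⟨w, hw, hwU, h1⟩
    exfalso
    apply hwU
    obtain ⟨v, hv⟩ := hu.exists_left_inv
    have h2 := pol_mem (W := U) hzU v h1
    rw [← Module.End.mul_apply, ← map_mul, hv, map_one] at h2
    exact h2
  | mul f μ hf hμ ih =>
    rintro hd ⟨w, hw, hwU, h1⟩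
    rw [map_mul, Module.End.mul_apply] at h1
    by_cases h2 : aeval z f w ∈ U
    · exact ih ((dvd_mul_left f μ).trans hd) ⟨w, hw, hwU, h2⟩
    · exact ⟨μ, hμ, (dvd_mul_right μ f).trans hd, _, pol_mem hz f hw, h2, h1⟩

/-- **the constituents are totally singular** -/
theorem exists_bigger [hr : Fact r.Prime] [CharP K r] (h : QB q B)
    (hUs : ∀ x ∈ U, q x = 0) (o : Op q B U z) (hU : ∀ x ∈ Pp B U, z x ∈ Pp B U)
    (hp : p.Prime) (hpK : (p : K) ≠ 0)
    (hlin : ∀ j, (∀ c : K, c = c ^ (r ^ j)) → ¬ p ∣ r ^ j + 1)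
    (hzp : ∀ x ∈ Pp B U, (z ^ p) x - x ∈ U) {v : V} (hv : v ∈ Pp B U) (hvz : z v - v ∉ U) :
    ∃ μ : K[X], (∀ w ∈ Pp B U, aeval z μ w ∈ U → q w = 0) ∧
      ∃ w ∈ Pp B U, w ∉ U ∧ aeval z μ w ∈ U := by
  have hUP : U ≤ Pp B U := by
    intro x hx y hy
    have h1 := h.add x y
    rw [hUs _ (U.add_mem hx hy), hUs x hx, hUs y hy] at h1
    linear_combination -h1
  obtain ⟨μ, hμ, hd, hw⟩ := exists_factor hU o.u (gs_ne hpK) (gs K p) dvd_rfl
    ⟨z v - v, (Pp B U).sub_mem (hU v hv) hv, hvz, by
      have h1 : aeval z (gs K p) (z v - v) = (z ^ p) v - v := by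
        have h2 : z v - v = aeval z (X - 1 : K[X]) v := by
          rw [map_sub, aeval_X, map_one]; rfl
        rw [h2, ← Module.End.mul_apply, ← map_mul, gs_mul, map_sub, map_pow, aeval_X, map_one]
        rfl
      rw [h1]
      exact hzp v hv⟩
  refine ⟨μ, ?_, hw⟩
  obtain ⟨⟨a, b, hab⟩, ⟨c, d, hcd⟩⟩ := coprimes hp hμ hd hpK hlin
  have hB : ∀ x ∈ Pp B U, aeval z μ x ∈ U → ∀ y ∈ Pp B U, aeval z μ y ∈ U → B x y = 0 := by
    intro x hx hxU y hy hyU
    have h1 : x = aeval z a (aeval z μ x) + aeval z (μ.comp (X ^ (p - 1))) (aeval z b x) := by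
      rw [← Module.End.mul_apply, ← Module.End.mul_apply, ← map_mul, ← map_mul,
        ← LinearMap.add_apply, ← map_add, mul_comm _ b, hab, map_one]
      rfl
    have h2 : B (aeval z a (aeval z μ x)) y = 0 := by
      rw [h.symm]
      exact hy _ (pol_mem o.u a hxU)
    have hbx : aeval z b x ∈ Pp B U := pol_mem hU b hx
    rw [h1, map_add, LinearMap.add_apply, h2, zero_add,
      pol_adj h o hU hp.one_lt.le hzp μ _ hbx y hy]
    exact hbx _ hyU
  intro w hw hwU
  have hww : 2 * q w = 0 := by
    have h1 := h.add w w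
    have h2 := h.sm 2 w
    rw [two_smul] at h2
    rw [h2, hB w hw hwU w hw hwU] at h1
    linear_combination h1
  by_cases h2 : (2 : K) = 0
  · have h3 : w = aeval z c (aeval z μ w) + (z (aeval z d w) - aeval z d w) := by
      have h4 : z (aeval z d w) - aeval z d w = aeval z (d * (X - 1)) w := by
        rw [mul_comm, map_mul, map_sub, aeval_X, map_one]; rfl
      rw [h4, ← Module.End.mul_apply, ← map_mul, ← LinearMap.add_apply, ← map_add, hcd, map_one]
      rfl
    obtain ⟨y, hy⟩ : ∃ y, y = aeval z d w := ⟨_, rfl⟩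
    have hyP : y ∈ Pp B U := by rw [hy]; exact pol_mem hU d hw
    have hyU : aeval z μ y ∈ U := by
      rw [hy, ← Module.End.mul_apply, ← map_mul, mul_comm, map_mul, Module.End.mul_apply]
      exact pol_mem o.u d hwU
    have hzyU : aeval z μ (z y) ∈ U := by
      have h4 : aeval z μ (z y) = z (aeval z μ y) := by
        have h5 : aeval z (μ * X) y = aeval z (X * μ) y := by rw [mul_comm]
        rw [map_mul, map_mul, aeval_X] at h5
        exact h5
      rw [h4]
      exact o.u _ hyU
    have hu := pol_mem o.u c hwU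
    rw [← hy] at h3
    rw [h3, h.add, hUs _ hu, h.sub, o.iso, hB _ (hU y hyP) hzyU y hyP hyU, h.symm,
      ((Pp B U).sub_mem (hU y hyP) hyP) _ hu]
    linear_combination q y * h2
  · exact (mul_eq_zero.mp hww).resolve_left h2

end Vale.Agent.P180.R2.H589.Mz
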